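import Vale.Agent.P328.Dual
import Vale.Agent.P328.Poin
import Vale.Agent.P328.Mix
import Vale.Agent.P328.Tm

open Vale.Agent.P328 Finset

theorem Vale.Agent.Results.P328.Sampler.result :
    ∃ (p : Polynomial ℕ) (A : (x : Input) → Fin x.m → Fin x.n → ℕ)
      (M : Turing.TM2ComputableInPolyTime Input.enc id (fun x => encTable (A x))),
      (∀ k, Finite (M.tm.Γ k)) ∧
      ∀ (m n : ℕ) (r : Fin m → ℕ) (c : Fin n → ℕ) (bal : ∑ i, r i = ∑ j, c j) (k : ℕ),
        (∀ l, A ⟨m, n, r, c, bal, k, l⟩ ∈ Omega r c) ∧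
        (1 / 2 : ℝ) * ∑ X ∈ Omega r c,
          |((univ.filter fun ω : Fin (p.eval (encInst r c k).length) → Bool =>
              A ⟨m, n, r, c, bal, k, List.ofFn ω⟩ = X).card : ℝ) /
              2 ^ (p.eval (encInst r c k).length) - 1 / (Omega r c).card| ≤ (1 / 2) ^ k := by
  obtain ⟨p, hp⟩ := mixing (poincare dualD)
  obtain ⟨M, hM⟩ := machine
  exact ⟨p, out, M, hM, hp⟩
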